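import Vale.Agent.P329.H157.Lang

/-!
# P329 : functions which are local over the cuts of a stage have level sets of star height one
-/

set_option linter.all false

namespace Vale.Agent.P329.H244

open Vale.Agent.P329 Vale.Agent.P329.H157
open Vale.Agent.P329.H259 (pw pw_zero pw_succ pw_one pw_add pw_succ' pw_mul pw_length FQ PP lq)

variable {α : Type} {R β : Type} [Zero R]

/-- finitely many residuals -/
def FS (f : List α → β) : Prop :=
  (Set.range fun X : List α => fun Y : List α => f (Y ++ X)).Finite

/-- no cut inside `V` after `X` -/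
def Unc (w : List α → R) (V X : List α) : Prop := ∀ A B, V = A ++ B → B ≠ [] → w (B ++ X) = 0

/-- aperiodic off the cuts -/
def AP (w : List α → R) (G : List α → β) : Prop :=
  ∀ v : List α, ∃ N, ∀ n, N ≤ n → ∀ X Y : List α, Unc w (pw v n) X →
    G (Y ++ pw v n ++ X) = G (Y ++ pw v (n + 1) ++ X)

/-- the number of cuts in `S` after `c` -/
noncomputable def nc (w : List α → R) : List α → List α → ℕ
  | [], _ => 0
  | x :: S, c => nc w S c + (open Classical in if w (x :: (S ++ c)) ≠ 0 then 1 else 0)

/-- memory of `n` cut words -/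
def Mem (w : List α → R) (n : ℕ) (G : List α → β) : Prop :=
  ∀ c c' S : List α, w c ≠ 0 → w c' ≠ 0 → n ≤ nc w S c → G (S ++ c) = G (S ++ c')

/-- the tree of cuts is the same over all cuts -/
def Rt (w f : List α → R) : Prop :=
  ∀ c c' r : List α, w c ≠ 0 → w c' ≠ 0 → r ≠ [] → f (r ++ c) = f (r ++ c')

theorem nc_append (w : List α → R) (A B c : List α) :
    nc w (A ++ B) c = nc w B c + nc w A (B ++ c) := by
  induction A with
  | nil => simp [nc]
  | cons a A ih =>
    rw [List.cons_append, nc, nc, ih, List.append_assoc]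
    ring

theorem nc_congr {w w' : List α → R} {S c c' : List α}
    (h : ∀ A B, S = A ++ B → B ≠ [] → w (B ++ c) = w' (B ++ c')) : nc w S c = nc w' S c' := by
  induction S with
  | nil => rfl
  | cons x S ih =>
    have h1 := h [] (x :: S) rfl (by simp)
    rw [List.cons_append, List.cons_append] at h1
    rw [nc, nc, h1, ih fun A B e hB => h (x :: A) B (by rw [e]; rfl) hB]

theorem nc_zero {w : List α → R} {V X : List α} : nc w V X = 0 ↔ Unc w V X := by
  constructor
  · intro h A B e hB
    subst e
    rw [nc_append] at h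
    have h1 : nc w B X = 0 := by omega
    cases B with
    | nil => exact absurd rfl hB
    | cons b B =>
      rw [nc] at h1
      by_contra h2
      rw [List.cons_append] at h2
      rw [if_pos h2] at h1
      omega
  · intro h
    induction V with
    | nil => rfl
    | cons x V ih =>
      rw [nc, ih fun A B e hB => h (x :: A) B (by rw [e]; rfl) hB, if_neg]
      have := h [] (x :: V) rfl (by simp)
      rw [List.cons_append] at this
      simpa using this

theorem Unc.right {w : List α → R} {A B X : List α} (h : Unc w (A ++ B) X) : Unc w B X := by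
  intro C D e hD
  exact h (A ++ C) D (by rw [e, List.append_assoc]) hD

theorem dec (w : List α → R) : ∀ (X c : List α) (n : ℕ), n + 1 ≤ nc w X c →
    ∃ S B, X = S ++ B ∧ B ≠ [] ∧ w (B ++ c) ≠ 0 ∧ nc w S (B ++ c) = n := by
  intro X
  induction X with
  | nil => intro c n h; rw [nc] at h; omega
  | cons x X ih =>
    intro c n h
    rw [nc] at h
    by_cases hw : w (x :: (X ++ c)) ≠ 0
    · rw [if_pos hw] at h
      cases n with
      | zero => exact ⟨[], x :: X, rfl, by simp, hw, rfl⟩
      | succ n =>
        obtain ⟨S, B, e, hB, h1, h2⟩ := ih c n (by omega)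
        refine ⟨x :: S, B, by rw [e]; rfl, hB, h1, ?_⟩
        rw [nc, h2, if_pos]
        rw [← List.append_assoc, ← e]
        exact hw
    · rw [if_neg hw] at h
      obtain ⟨S, B, e, hB, h1, h2⟩ := ih c n (by omega)
      refine ⟨x :: S, B, by rw [e]; rfl, hB, h1, ?_⟩
      rw [nc, h2, if_neg]
      · rfl
      · rw [← List.append_assoc, ← e]
        exact hw

theorem block (w : List α → R) (V : List α) (N : ℕ) : ∀ (n : ℕ) (X : List α) (m : ℕ),
    (n + 1) * N ≤ m → nc w (pw V m) X ≤ n → ∃ b, b + N ≤ m ∧ Unc w (pw V N) (pw V b ++ X) := by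
  intro n
  induction n with
  | zero =>
    intro X m hm h
    refine ⟨0, by omega, ?_⟩
    rw [pw_zero, List.nil_append, ← nc_zero]
    have e : pw V m = pw V (m - N) ++ pw V N := by rw [← pw_add]; congr 1; omega
    rw [e, nc_append] at h
    omega
  | succ n ih =>
    intro X m hm h
    have h0 : (n + 1 + 1) * N = (n + 1) * N + N := by ring
    by_cases hU : Unc w (pw V N) X
    · exact ⟨0, by omega, by simpa using hU⟩
    · rw [← nc_zero] at hU
      have e : pw V m = pw V (m - N) ++ pw V N := by rw [← pw_add]; congr 1; omega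
      rw [e, nc_append] at h
      obtain ⟨b, hb, h1⟩ := ih (pw V N ++ X) (m - N) (by omega) (by omega)
      refine ⟨b + N, by omega, ?_⟩
      rw [pw_add, List.append_assoc]
      exact h1

theorem pw_reverse (v : List α) (n : ℕ) : (pw v n).reverse = pw v.reverse n := by
  induction n with
  | zero => rfl
  | succ n ih => rw [pw_succ, List.reverse_append, ih, ← pw_succ']

theorem pp_few (w : List α → R) (n : ℕ) (c : List α) (P : List α → Prop)
    (hP : ∀ S, P S → nc w S c ≤ n)
    (hA : ∀ v, ∃ N, ∀ m, N ≤ m → ∀ X Y, Unc w (pw v m) (X ++ c) →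
      (P (Y ++ pw v m ++ X) ↔ P (Y ++ pw v (m + 1) ++ X))) (v : List α) :
    PP v {u | P u.reverse} := by
  obtain ⟨N, hN⟩ := hA v.reverse
  refine ⟨(n + 1) * (N + 1), fun m hm x y => ?_⟩
  have h0 : (n + 1) * (N + 1) = (n + 1) * N + (n + 1) := by ring
  simp only [Set.mem_setOf_eq, List.reverse_append, pw_reverse]
  generalize x.reverse = X
  generalize y.reverse = Y
  generalize v.reverse = V at *
  have e1 : ∀ a k b, a + k + b = m → Y ++ (pw V m ++ X) = (Y ++ pw V a) ++ pw V k ++ (pw V b ++ X) := by
    intro a k b h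
    rw [← h, pw_add, pw_add]; simp
  have e2 : ∀ a k b, a + k + b = m + 1 →
      Y ++ (pw V (m + 1) ++ X) = (Y ++ pw V a) ++ pw V k ++ (pw V b ++ X) := by
    intro a k b h
    rw [← h, pw_add, pw_add]; simp
  constructor
  · intro h
    have h1 := hP _ h
    rw [nc_append, nc_append] at h1
    obtain ⟨b, hb, h2⟩ := block w V N n (X ++ c) m (by omega) (by omega)
    rw [e1 (m - N - b) N b (by omega)] at h
    rw [e2 (m - N - b) (N + 1) b (by omega)]
    exact (hN N le_rfl _ _ (by rw [List.append_assoc]; exact h2)).mp h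
  · intro h
    have h1 := hP _ h
    rw [nc_append, nc_append] at h1
    obtain ⟨b, hb, h2⟩ := block w V (N + 1) n (X ++ c) (m + 1) (by omega) (by omega)
    rw [e2 (m - N - b) (N + 1) b (by omega)] at h
    rw [e1 (m - N - b) N b (by omega)]
    rw [pw_succ] at h2
    exact (hN N le_rfl _ _ (by rw [List.append_assoc]; exact h2.right)).mpr h

theorem unc_succ {w : List α → R} {v : List α} {N : ℕ}
    (hN : ∀ n, N ≤ n → ∀ X Y : List α, Unc w (pw v n) X →
      w (Y ++ pw v n ++ X) = w (Y ++ pw v (n + 1) ++ X)) {m : ℕ} (hm : N + 1 ≤ m) {X : List α}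
    (h : Unc w (pw v m) X) : Unc w (pw v (m + 1)) X := by
  intro A B e hB
  rw [pw_succ] at e
  rcases List.append_eq_append_iff.mp e with ⟨a', h1, h2⟩ | ⟨c', h1, h2⟩
  · exact h a' B h2 hB
  · by_cases hc : c' = []
    · subst hc
      rw [List.nil_append] at h2
      exact h [] B h2.symm hB
    · obtain ⟨m', rfl⟩ : ∃ m', m = m' + 1 := ⟨m - 1, by omega⟩
      have h3 : Unc w (pw v m') X := by
        rw [pw_succ] at h
        exact h.right
      rw [h2, ← hN m' (by omega) X c' h3]
      refine h A (c' ++ pw v m') ?_ ?_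
      · rw [pw_succ, ← List.append_assoc, ← h1]
      · simp [hc]

theorem ap_nc {w : List α → R} (hw : AP w w) (v : List α) :
    ∃ N, ∀ m, N ≤ m → ∀ X Y, Unc w (pw v m) X →
      nc w (Y ++ pw v m) X = nc w (Y ++ pw v (m + 1)) X := by
  obtain ⟨N, hN⟩ := hw v
  refine ⟨N + 1, fun m hm X Y h => ?_⟩
  have h1 := unc_succ hN hm h
  rw [nc_append, nc_append, nc_zero.mpr h, nc_zero.mpr h1, zero_add, zero_add]
  refine nc_congr fun A B e hB => ?_
  rw [← List.append_assoc, ← List.append_assoc]
  exact hN m (by omega) X B h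

/-- the language of a stage predicate over `c` with boundedly many cuts is star-free -/
theorem sf_few [Finite α] {w : List α → R} {G : List α → β} (hf : FS w) (hw : AP w w)
    (hG : FS G) (hGA : AP w G) (c : List α) (n : ℕ) (P : ℕ → R → β → Prop)
    (hP : ∀ k r b, P k r b → k ≤ n) :
    SH 0 {u : List α | P (nc w u.reverse c) (w (u.reverse ++ c)) (G (u.reverse ++ c))} := by
  classical
  refine sf_of ?_ (pp_few w n c (fun S => P (nc w S c) (w (S ++ c)) (G (S ++ c)))
    (fun S h => hP _ _ _ h) fun v => ?_)
  · -- finitely many quotients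
    let F : ℕ × (List α → R) × (List α → β) → Set (List α) := fun q =>
      {u | P (q.1 + nc q.2.1 u.reverse []) (q.2.1 u.reverse) (q.2.2 u.reverse)}
    have hfin : (F '' ((Set.Iic (n + 1)) ×ˢ
        ((Set.range fun X : List α => fun Y : List α => w (Y ++ X)) ×ˢ
          (Set.range fun X : List α => fun Y : List α => G (Y ++ X))))).Finite :=
      (((Set.finite_Iic (n + 1)).prod (hf.prod hG)).image F)
    refine hfin.subset ?_
    rintro _ ⟨x, rfl⟩
    refine ⟨(min (nc w x.reverse c) (n + 1), (fun Y => w (Y ++ (x.reverse ++ c))),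
      fun Y => G (Y ++ (x.reverse ++ c))), ⟨?_, ⟨_, rfl⟩, ⟨_, rfl⟩⟩, ?_⟩
    · simp
    · ext y
      simp only [F, lq, Set.mem_setOf_eq, List.reverse_append, List.append_assoc]
      have e : nc (fun Y => w (Y ++ (x.reverse ++ c))) y.reverse []
          = nc w y.reverse (x.reverse ++ c) :=
        nc_congr fun A B _ _ => by simp
      rw [e, nc_append]
      by_cases h : nc w x.reverse c ≤ n + 1
      · rw [min_eq_left h]
      · constructor
        · intro h1
          have := hP _ _ _ h1
          omega
        · intro h1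
          have := hP _ _ _ h1
          omega
  · obtain ⟨N1, h1⟩ := ap_nc hw v
    obtain ⟨N2, h2⟩ := hw v
    obtain ⟨N3, h3⟩ := hGA v
    refine ⟨max N1 (max N2 N3), fun m hm X Y h => ?_⟩
    have e1 : nc w (Y ++ pw v m ++ X) c = nc w (Y ++ pw v (m + 1) ++ X) c := by
      rw [nc_append w (Y ++ pw v m) X c, nc_append w (Y ++ pw v (m + 1)) X c,
        h1 m (by omega) _ _ h]
    have e2 : w (Y ++ pw v m ++ X ++ c) = w (Y ++ pw v (m + 1) ++ X ++ c) := by
      rw [List.append_assoc, List.append_assoc (Y ++ pw v (m + 1))]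
      exact h2 m (by omega) _ _ h
    have e3 : G (Y ++ pw v m ++ X ++ c) = G (Y ++ pw v (m + 1) ++ X ++ c) := by
      rw [List.append_assoc, List.append_assoc (Y ++ pw v (m + 1))]
      exact h3 m (by omega) _ _ h
    rw [e1, e2, e3]

section cuts

variable {w : List α → R} {c0 : List α}

/-- cut words -/
def Dl (w : List α → R) (c0 : List α) : Set (List α) :=
  {u | nc w u.reverse c0 = 1 ∧ w (u.reverse ++ c0) ≠ 0}

/-- first cuts -/
def Il (w : List α → R) : Set (List α) :=
  {u | nc w u.reverse [] = 1 ∧ w (u.reverse ++ []) ≠ 0}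

theorem cuts_of (hR : Rt w w) (h0 : w c0 ≠ 0) : ∀ (L : List (List α)) (i : List α),
    w i.reverse ≠ 0 → (∀ u ∈ L, u ∈ Dl w c0) → w (i ++ L.flatten).reverse ≠ 0 := by
  intro L
  induction L with
  | nil => intro i hi _; simpa using hi
  | cons d L ih =>
    intro i hi hL
    rw [List.flatten_cons, ← List.append_assoc]
    refine ih (i ++ d) ?_ fun u hu => hL u (List.mem_cons_of_mem _ hu)
    obtain ⟨h1, h2⟩ := hL d (by simp)
    rw [List.reverse_append, hR i.reverse c0 d.reverse hi h0 ?_]
    · exact h2
    · intro h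
      rw [h] at h1
      simp [nc] at h1

theorem cuts_dec (hR : Rt w w) (h0 : w c0 ≠ 0) : ∀ (k : ℕ) (c : List α), c.length ≤ k →
    c ≠ [] → w c ≠ 0 → c.reverse ∈ cat (Il w) (kst (Dl w c0)) := by
  intro k
  induction k with
  | zero => intro c hk hc; exact absurd (List.length_eq_zero_iff.mp (by omega)) hc
  | succ k ih =>
    intro c hk hc hw
    by_cases h2 : 1 + 1 ≤ nc w c []
    · obtain ⟨S, B, e, hB, h3, h4⟩ := dec w c [] 1 h2
      rw [List.append_nil] at h3 h4
      have hS : S ≠ [] := by
        intro h
        rw [h] at h4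
        simp [nc] at h4
      subst e
      have hl : B.length ≤ k := by
        rw [List.length_append] at hk
        have := List.length_pos_iff.mpr hS
        omega
      obtain ⟨i, hi, s, hs, e⟩ := ih B hl hB h3
      refine ⟨i, hi, s ++ S.reverse, ?_, ?_⟩
      · refine H259.kst_append hs (H259.kst_of_mem ?_)
        constructor
        · rw [List.reverse_reverse, ← h4]
          exact nc_congr fun A C _ hC => hR _ _ _ h0 h3 hC
        · rw [List.reverse_reverse, hR c0 B S h0 h3 hS]
          exact hw
      · rw [← List.append_assoc, e, List.reverse_append]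
    · refine ⟨c.reverse, ?_, [], H259.kst_nil _, by simp⟩
      constructor
      · rw [List.reverse_reverse]
        have : nc w c [] ≠ 0 := by
          rw [Ne, nc_zero]
          intro h
          have := h [] c rfl hc
          rw [List.append_nil] at this
          exact hw this
        omega
      · simpa using hw

end cuts

/-- **Row (A)**: level sets of local functions have star height at most one. -/
theorem rowA' [Finite α] {w : List α → R} {G : List α → β} (hf : FS w) (hw : AP w w) (hR : Rt w w)
    (hG : FS G) (hGA : AP w G) {n : ℕ} (hM : Mem w n G) (a : β) :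
    SH 1 {u : List α | G u.reverse = a} := by
  classical
  have hfew : SH 0 {u : List α | nc w u.reverse [] ≤ n ∧ G (u.reverse ++ []) = a} :=
    sf_few hf hw hG hGA [] n (fun k _ b => k ≤ n ∧ b = a) fun k _ _ h => h.1
  by_cases h0 : ∃ c0, w c0 ≠ 0
  · obtain ⟨c0, h0⟩ := h0
    have hW : SH 0 {u : List α | nc w u.reverse c0 = n ∧ G (u.reverse ++ c0) = a} :=
      sf_few hf hw hG hGA c0 n (fun k _ b => k = n ∧ b = a) fun k _ _ h => h.1.le
    have hD : SH 0 (Dl w c0) :=
      sf_few hf hw hG hGA c0 1 (fun k r _ => k = 1 ∧ r ≠ 0) fun k _ _ h => h.1.le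
    have hI : SH 0 (Il w) :=
      sf_few hf hw hG hGA [] 1 (fun k r _ => k = 1 ∧ r ≠ 0) fun k _ _ h => h.1.le
    have hU : {u : List α | G u.reverse = a} =
        {u : List α | nc w u.reverse [] ≤ n ∧ G (u.reverse ++ []) = a} ∪
        cat (cat (Il w) (kst (Dl w c0)))
          {u : List α | nc w u.reverse c0 = n ∧ G (u.reverse ++ c0) = a} := by
      ext u
      simp only [Set.mem_setOf_eq, Set.mem_union, List.append_nil]
      constructor
      · intro h
        by_cases hn : nc w u.reverse [] ≤ n
        · exact Or.inl ⟨hn, h⟩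
        · right
          obtain ⟨S, B, e, hB, h1, h2⟩ := dec w u.reverse [] n (by omega)
          rw [List.append_nil] at h1 h2
          have hu : u = B.reverse ++ S.reverse := by
            rw [← List.reverse_append, ← e, List.reverse_reverse]
          refine ⟨B.reverse, cuts_dec hR h0 _ B le_rfl hB h1, S.reverse, ⟨?_, ?_⟩, hu.symm⟩
          · rw [List.reverse_reverse, ← h2]
            exact nc_congr fun A C _ hC => hR _ _ _ h0 h1 hC
          · rw [List.reverse_reverse, hM c0 B S h0 h1 ?_, ← e]
            · exact h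
            · rw [← h2]
              exact (nc_congr fun A C _ hC => hR _ _ _ h1 h0 hC).le
      · rintro (⟨-, h⟩ | ⟨_, ⟨i, hi, s, ⟨L, hL, rfl⟩, rfl⟩, t, ⟨h1, h2⟩, rfl⟩)
        · exact h
        · have h3 : w (i ++ L.flatten).reverse ≠ 0 :=
            cuts_of hR h0 L i (by have := hi.2; rwa [List.append_nil] at this) hL
          rw [List.reverse_append, hM _ c0 t.reverse h3 h0 ?_]
          · exact h2
          · rw [← h1]
            exact (nc_congr fun A C _ hC => hR _ _ _ h0 h3 hC).le
    rw [hU]
    exact (hfew.of_zero).union (((hI.of_zero).cat hD.kst).cat hW.of_zero)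
  · have hU : {u : List α | G u.reverse = a} =
        {u : List α | nc w u.reverse [] ≤ n ∧ G (u.reverse ++ []) = a} := by
      ext u
      simp only [Set.mem_setOf_eq, List.append_nil]
      constructor
      · intro h
        refine ⟨?_, h⟩
        have : nc w u.reverse [] = 0 := by
          rw [nc_zero]
          intro A B _ _
          by_contra h1
          exact h0 ⟨_, h1⟩
        omega
      · exact fun h => h.2
    rw [hU]
    exact hfew.of_zero

end Vale.Agent.P329.H244
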