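import Vale.Agent.P329.H962.Rows
import Vale.Agent.P329.H244.RowA

/-! # P329 : row (A) in the literal form of H962/Rows -/

set_option linter.all false

namespace Vale.Agent.P329.H244

open Vale.Agent.P329 Vale.Agent.P329.H157
open Vale.Agent.P329.H259 (pw pw_zero pw_succ pw_one pw_add pw_succ' pw_mul pw_length FQ PP lq)

variable {α A : Type} {p : ℕ}

theorem unc_iff {w : List α → ZMod p} {V X : List α} : H962.Unc w V X ↔ Unc w V X := by
  constructor
  · intro h A B e hB
    exact h B ⟨A, e.symm⟩ hB
  · rintro h B ⟨A, e⟩ hB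
    exact h A B e.symm hB

theorem nc_eq (w : List α → ZMod p) (S c : List α) : H962.nc w S c = nc w S c := by
  induction S with
  | nil => rfl
  | cons a S ih =>
    rw [H962.nc, nc, ih]
    by_cases h : w (a :: (S ++ c)) = 0
    · rw [if_pos h, if_neg (by simpa using h)]
    · rw [if_neg h, if_pos h]

theorem ap_of {w : List α → ZMod p} {G : List α → A} (h : H962.AP w G) : AP w G := by
  intro v
  obtain ⟨N, hN⟩ := h v
  refine ⟨N, fun n hn X Y hU => ?_⟩
  rw [List.append_assoc, List.append_assoc]
  exact hN n hn X Y (unc_iff.mpr hU)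

theorem rowA : H962.RowA := by
  intro α _ p _ w hw G hG a
  obtain ⟨h1, h2, n, h3⟩ := hG
  refine _root_.Vale.Agent.P329.H244.rowA' (w := w) (G := G) hw.fs (ap_of hw.ap) hw.rt h1 (ap_of h2)
    (n := n) ?_ a
  intro c c' S hc hc' hn
  exact h3 c c' S hc hc' (by rw [nc_eq]; exact hn)

end Vale.Agent.P329.H244
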