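import Vale.Agent.P329.H962.Rows

/-!
# P329 : the core induction (number of marks, number of bad zones, memory)
-/

set_option linter.all false

namespace Vale.Agent.P329.H244

open Vale.Agent.P329.H962 Filter

variable {α B : Type} {p : ℕ}

/-! ### sums -/

theorem N_add (f g : List α → ZMod p) (X : List α) : N (fun X => f X + g X) X = N f X + N g X := by
  induction X with
  | nil => simp [N]
  | cons a X ih => rw [N, N, N, ih]; ring

theorem N_zero (X : List α) : N (fun _ => (0 : ZMod p)) X = 0 := by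
  induction X with
  | nil => rfl
  | cons a X ih => rw [N, ih, add_zero]

theorem N_sum {ι : Type} (s : Finset ι) (f : ι → List α → ZMod p) (X : List α) :
    N (fun X => ∑ i ∈ s, f i X) X = ∑ i ∈ s, N (f i) X := by
  classical
  induction s using Finset.induction_on with
  | empty => simpa using N_zero X
  | insert i s hi ih =>
    rw [Finset.sum_insert hi, ← ih, ← N_add]
    congr 1
    funext Y
    rw [Finset.sum_insert hi]

theorem RR.sum [Finite α] [Fact p.Prime] (hH1 : RowH1) {w : List α → ZMod p}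
    {Fs : List (Filter (List α))} {ι : Type} (s : Finset ι) {G : ι → List α → ZMod p}
    (h : ∀ i ∈ s, RR w Fs (G i)) : RR w Fs fun X => ∑ i ∈ s, G i X := by
  classical
  induction s using Finset.induction_on with
  | empty => simpa using (hH1 α p w Fs).1
  | insert i s hi ih =>
    have h1 := (hH1 α p w Fs).2.1 _ _ (h i (by simp)) (ih fun j hj => h j (by simp [hj]))
    have e : (fun X => ∑ j ∈ insert i s, G j X) = fun X => G i X + ∑ j ∈ s, G j X := by
      funext X
      rw [Finset.sum_insert hi]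
    rw [e]
    exact h1

/-! ### near points -/

theorem exists_near {w : List α → ZMod p} {β : List α → B} {F : Filter (List α)}
    {M : Set (ℕ → B)} (hZ : Zn w β F M) {m : ℕ → B} (hm : m ∈ M) (J : ℕ) :
    ∃ X, Near β m J X := by
  obtain ⟨z, h1, h2⟩ := hZ.z
  obtain ⟨k, hk⟩ := h2 m hm J
  have := hZ.nb
  obtain ⟨X, hX⟩ := (h1 (k + J)).exists
  refine ⟨X.drop k, ?_, fun i hi => ?_⟩
  · rw [List.length_drop]
    have := hX.1
    omega
  · rw [List.drop_drop, hX.2 (k + i) (by omega)]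
    exact hk i hi

theorem near_mono {β : List α → B} {m : ℕ → B} {J J' : ℕ} {X : List α} (h : Near β m J X)
    (hJ : J' ≤ J) : Near β m J' X :=
  ⟨hJ.trans h.1, fun i hi => h.2 i (by omega)⟩

theorem sh_iter (m : ℕ → B) (k i : ℕ) : (sh^[k] m) i = m (k + i) := by
  induction k generalizing i with
  | zero => simp
  | succ k ih =>
    rw [Function.iterate_succ_apply', sh, ih]
    congr 1
    ring

theorem near_drop {β : List α → B} {m : ℕ → B} {J : ℕ} {X : List α} {k : ℕ}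
    (h : Near β m (J + k) X) : Near β (sh^[k] m) J (X.drop k) := by
  refine ⟨?_, fun i hi => ?_⟩
  · rw [List.length_drop]
    have := h.1
    omega
  · rw [List.drop_drop, h.2 (k + i) (by omega), sh_iter]

theorem inv_iter {M : Set (ℕ → B)} (h : ∀ m ∈ M, sh m ∈ M) {m : ℕ → B} (hm : m ∈ M) (k : ℕ) :
    sh^[k] m ∈ M := by
  induction k with
  | zero => exact hm
  | succ k ih => rw [Function.iterate_succ_apply']; exact h _ ih

theorem near_base {β : List α → B} {h : List α → ZMod p} {m : ℕ → B × ZMod p × ZMod p} {J : ℕ}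
    {X : List α} (hX : Near (ext β h) m J X) : Near β (pr1 m) J X :=
  ⟨hX.1, fun i hi => congrArg Prod.fst (hX.2 i hi)⟩

/-! ### one step of zones -/

/-- the relation between the zones of a stage and of a return stage -/
def Rel (w' h : List α → ZMod p) (β : List α → B) (Z : Filter (List α) × Set (ℕ → B))
    (Z' : Filter (List α) × Set (ℕ → B × ZMod p × ZMod p)) : Prop :=
  Zn w' (ext β h) Z'.1 Z'.2 ∧ ∀ m ∈ Z'.2, pr1 m ∈ Z.2

theorem strands (hG2 : RowG2) [Finite B] [Fact p.Prime] {w h : List α → ZMod p}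
    {β : List α → B} {wB : B → ZMod p} {lB : B → Option α} (hw : Stg w) (hS : Sys w β wB lB)
    (hh : Unt w h) (ρ : ZMod p) : ∀ (Zs : List (Filter (List α) × Set (ℕ → B))),
    (∀ Z ∈ Zs, Zn w β Z.1 Z.2) → (∀ Z ∈ Zs, Cov (rc h ρ) β Z.2) → ∀ (ss : List (ZMod p)),
    ss.length = (Zs.map Prod.fst).length →
    (∀ F ∈ List.zipWith (fun F s => strd F h s) (Zs.map Prod.fst) ss, F.NeBot) →
    ∃ Zs' : List (Filter (List α) × Set (ℕ → B × ZMod p × ZMod p)),
      Zs'.map Prod.fst = List.zipWith (fun F s => strd F h s) (Zs.map Prod.fst) ss ∧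
      List.Forall₂ (Rel (rc h ρ) h β) Zs Zs' := by
  intro Zs
  induction Zs with
  | nil =>
    intro _ _ ss _ _
    exact ⟨[], by simp, List.Forall₂.nil⟩
  | cons Z Zs ih =>
    intro hZ hC ss hl hF
    cases ss with
    | nil => simp at hl
    | cons s ss =>
      obtain ⟨Zs', h1, h2⟩ := ih (fun Z hZ' => hZ Z (List.mem_cons_of_mem _ hZ'))
        (fun Z hZ' => hC Z (List.mem_cons_of_mem _ hZ')) ss (by simpa using hl)
        (fun F hF' => hF F (by
          rw [List.map_cons, List.zipWith_cons_cons]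
          exact List.mem_cons_of_mem _ hF'))
      obtain ⟨M', h3, h4⟩ := hG2 α B p w h β wB lB Z.1 Z.2 ρ s hw hS hh (hZ Z (by simp))
        (hF _ (by rw [List.map_cons, List.zipWith_cons_cons]; simp)) (hC Z (by simp))
      refine ⟨(strd Z.1 h s, M') :: Zs', ?_, List.Forall₂.cons ⟨h3, h4⟩ h2⟩
      rw [List.map_cons, List.map_cons, List.zipWith_cons_cons, h1]

theorem step (hG2 : RowG2) (hH2 : RowH2) [Finite α] [Finite B] [Fact p.Prime]
    {w h : List α → ZMod p}
    {β : List α → B} {wB : B → ZMod p} {lB : B → Option α} (hw : Stg w) (hS : Sys w β wB lB)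
    (hh : Unt w h) (ρ : ZMod p) {Zs : List (Filter (List α) × Set (ℕ → B))}
    (hZ : ∀ Z ∈ Zs, Zn w β Z.1 Z.2) (hC : ∀ Z ∈ Zs, Cov (rc h ρ) β Z.2) {G : List α → ZMod p}
    (H : ∀ Zs', List.Forall₂ (Rel (rc h ρ) h β) Zs Zs' → RR (rc h ρ) (Zs'.map Prod.fst) G) :
    RR w (Zs.map Prod.fst) G := by
  refine hH2 α p w h hw hh ρ _ G fun ss hl hF => ?_
  obtain ⟨Zs', h1, h2⟩ := strands hG2 hw hS hh ρ Zs hZ hC ss hl hF
  rw [← h1]
  exact H Zs' h2

theorem rel_zn {w' h : List α → ZMod p} {β : List α → B}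
    {Zs : List (Filter (List α) × Set (ℕ → B))}
    {Zs' : List (Filter (List α) × Set (ℕ → B × ZMod p × ZMod p))}
    (h1 : List.Forall₂ (Rel w' h β) Zs Zs') : ∀ Z' ∈ Zs', Zn w' (ext β h) Z'.1 Z'.2 := by
  induction h1 with
  | nil => simp
  | cons h2 _ ih =>
    intro Z' hZ'
    rcases List.mem_cons.mp hZ' with rfl | h3
    · exact h2.1
    · exact ih Z' h3

/-! ### counting bad zones -/

open Classical in
/-- number of elements with the property `b` -/
noncomputable def cnt {T : Type} (b : T → Prop) : List T → ℕ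
  | [] => 0
  | Z :: Zs => cnt b Zs + if b Z then 1 else 0

theorem cnt_le {T T' : Type} {R : T → T' → Prop} {b : T → Prop} {b' : T' → Prop} {Zs : List T}
    {Zs' : List T'} (h : List.Forall₂ R Zs Zs')
    (hb : ∀ Z Z', Z ∈ Zs → Z' ∈ Zs' → R Z Z' → b' Z' → b Z) : cnt b' Zs' ≤ cnt b Zs := by
  induction h with
  | nil => exact le_rfl
  | @cons Z Z' Zs Zs' h1 _ ih =>
    rw [cnt, cnt]
    have h2 := ih fun Y Y' hY hY' hR =>
      hb Y Y' (List.mem_cons_of_mem _ hY) (List.mem_cons_of_mem _ hY') hR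
    by_cases h3 : b' Z'
    · rw [if_pos h3, if_pos (hb Z Z' (by simp) (by simp) h1 h3)]
      omega
    · rw [if_neg h3]
      omega

theorem cnt_lt {T T' : Type} {R : T → T' → Prop} {b : T → Prop} {b' : T' → Prop} {Zs : List T}
    {Zs' : List T'} (h : List.Forall₂ R Zs Zs')
    (hb : ∀ Z Z', Z ∈ Zs → Z' ∈ Zs' → R Z Z' → b' Z' → b Z)
    {Z0 : T'} (hZ : Z0 ∈ Zs') (h0 : ∀ Z, Z ∈ Zs → R Z Z0 → b Z) (h0' : ¬ b' Z0) :
    cnt b' Zs' < cnt b Zs := by
  induction h with
  | nil => simp at hZ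
  | @cons Z Z' Zs Zs' h1 h2 ih =>
    rw [cnt, cnt]
    rcases List.mem_cons.mp hZ with rfl | h3
    · have h4 := cnt_le h2 fun Y Y' hY hY' hR =>
        hb Y Y' (List.mem_cons_of_mem _ hY) (List.mem_cons_of_mem _ hY') hR
      rw [if_neg h0', if_pos (h0 Z (by simp) h1)]
      omega
    · have h4 := ih (fun Y Y' hY hY' hR =>
        hb Y Y' (List.mem_cons_of_mem _ hY) (List.mem_cons_of_mem _ hY') hR) h3
        fun Y hY hR => h0 Y (List.mem_cons_of_mem _ hY) hR
      by_cases h5 : b' Z'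
      · rw [if_pos h5, if_pos (hb Z Z' (by simp) (by simp) h1 h5)]
        omega
      · rw [if_neg h5]
        omega

/-- bad zones -/
def bad (g : List α → ZMod p) (β : List α → B) (wB : B → ZMod p)
    (Z : Filter (List α) × Set (ℕ → B)) : Prop := ¬ Fl g β Z.2 ∧ ¬ Gd wB Z.2

/-! ### statuses -/

theorem rep_w {w : List α → ZMod p} {β : List α → B} {wB : B → ZMod p} {lB : B → Option α}
    (hS : Sys w β wB lB) (M : Set (ℕ → B)) : Rep β M w fun z => wB (z 0) := by
  refine ⟨1, fun z z' h => by show wB (z 0) = wB (z' 0); rw [h 0 (by omega)], ?_⟩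
  intro m _ X hX
  have := hX.2 0 (by omega)
  rw [List.drop_zero] at this
  rw [hS.w_eq, this]

theorem rot_next (hF2 : RowF2) (hG3 : RowG3) [Finite B] [Fact p.Prime] {w : List α → ZMod p}
    {β : List α → B} {wB : B → ZMod p} {lB : B → Option α} (hS : Sys w β wB lB) {ρ : ZMod p}
    {F' : Filter (List α)} {M : Set (ℕ → B)} {M' : Set (ℕ → B × ZMod p × ZMod p)} (hM : Mn M)
    (hZ' : Zn (rc w ρ) (ext β w) F' M') (hpr : ∀ m ∈ M', pr1 m ∈ M) (hGd : Gd wB M)
    (Θ : (ℕ → B × ZMod p × ZMod p) → ZMod p) (hΘ : ∀ m ∈ M', ∑ c, Θ (rot c m) = (m 0).2.2) :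
    ¬ Cob M' Θ := by
  have h1 : Skw M (fun z => wB (z 0)) M' :=
    hG3 α B p (rc w ρ) w β F' M M' _ hZ' hpr (rep_w hS M)
  refine (hF2 B p M (fun z => wB (z 0)) 1 M' hM ?_ hZ'.mn h1 hGd).2.2 Θ ?_
  · intro z z' h
    show wB (z 0) = wB (z' 0)
    rw [h 0 (by omega)]
  · intro m hm
    rw [hΘ m hm, h1.tau m hm]

theorem sum_rot [NeZero p] (a ρ y : ZMod p) :
    ∑ c : ZMod p, (if a + c = ρ then y else 0) = y := by
  rw [Finset.sum_eq_single (ρ - a)]
  · rw [if_pos (by ring)]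
  · intro c _ hc
    rw [if_neg]
    intro h
    exact hc (by rw [← h]; ring)
  · intro h
    exact absurd (Finset.mem_univ _) h

theorem gd_next (hF2 : RowF2) (hG3 : RowG3) [Finite B] [Fact p.Prime] {w : List α → ZMod p}
    {β : List α → B} {wB : B → ZMod p} {lB : B → Option α} (hS : Sys w β wB lB) {ρ : ZMod p}
    {F' : Filter (List α)} {M : Set (ℕ → B)} {M' : Set (ℕ → B × ZMod p × ZMod p)} (hM : Mn M)
    (hZ' : Zn (rc w ρ) (ext β w) F' M') (hpr : ∀ m ∈ M', pr1 m ∈ M) (hGd : Gd wB M) :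
    Gd (wE (B := B) ρ) M' := by
  refine rot_next hF2 hG3 hS hM hZ' hpr hGd _ fun m _ => ?_
  have : NeZero p := ⟨(Fact.out : p.Prime).ne_zero⟩
  change ∑ c : ZMod p, (if (m 0).2.1 + c = ρ then (m 0).2.2 else 0) = _
  exact sum_rot _ _ _

/-- the local identity of the null splitting -/
theorem Bf_zero {w u : List α → ZMod p} {ρ : ZMod p} : ∀ X : List α, N w X = ρ → Bf w u ρ X = 0 := by
  intro X
  induction X with
  | nil => intro _; rfl
  | cons a X ih =>
    intro h
    rw [Bf]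
    by_cases h1 : w (a :: X) = 0
    · rw [if_pos h1]
      refine ih ?_
      rw [N, h1, add_zero] at h
      exact h
    · rw [if_neg h1, if_pos h]

theorem phi_id {w u : List α → ZMod p} (hu : ∀ X, w X = 0 → u X = 0) (ρ : ZMod p)
    (X : List α) : phi w u ρ X + Bf w u ρ X - Bf w u ρ X.tail =
      u X * ((if N w X.tail = ρ then 1 else 0) - (if N w X = ρ then 1 else 0)) := by
  cases X with
  | nil =>
    change (0 : ZMod p) + 0 - 0 =
      u [] * ((if N w [] = ρ then 1 else 0) - (if N w [] = ρ then 1 else 0))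
    ring
  | cons a X =>
    rw [List.tail_cons]
    by_cases h1 : w (a :: X) = 0
    · have h2 : N w (a :: X) = N w X := by rw [N, h1, add_zero]
      have h3 : rc w ρ (a :: X) = 0 := by
        rw [rc]; split
        · exact h1
        · rfl
      rw [phi, if_pos h3, Bf, if_pos h1, h2, hu _ h1]
      ring
    · by_cases h2 : N w (a :: X) = ρ
      · have h3 : rc w ρ (a :: X) ≠ 0 := by
          rw [rc, if_pos h2]; exact h1
        have h4 : N w X ≠ ρ := by
          intro h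
          rw [N, h] at h2
          exact h1 (by simpa using h2)
        rw [phi, if_neg h3, Bf, if_neg h1, if_pos h2, if_neg h4, if_pos h2]
        ring
      · have h3 : rc w ρ (a :: X) = 0 := by rw [rc, if_neg h2]
        rw [phi, if_pos h3, Bf, if_neg h1, if_neg h2, if_neg h2]
        by_cases h4 : N w X = ρ
        · rw [if_pos h4, if_pos h4, Bf_zero X h4]
          ring
        · rw [if_neg h4, if_neg h4]
          ring

theorem phi_sup {w u : List α → ZMod p} {ρ : ZMod p} (X : List α) (h : phi w u ρ X ≠ 0) :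
    rc w ρ X ≠ 0 := by
  cases X with
  | nil => exact absurd rfl h
  | cons a X =>
    intro h1
    rw [phi, if_pos h1] at h
    exact h rfl

theorem Bf_cut {w u : List α → ZMod p} {ρ : ZMod p} {X : List α} (h : rc w ρ X ≠ 0) :
    Bf w u ρ X = 0 := by
  refine Bf_zero X ?_
  by_contra h1
  rw [rc, if_neg h1] at h
  exact h rfl

/-- the buffer vanishes if `u` vanishes back to the last return -/
theorem Bf_win {w u : List α → ZMod p} {ρ : ZMod p} : ∀ (i : ℕ) (X : List α),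
    rc w ρ (X.drop i) ≠ 0 → (∀ l < i, u (X.drop l) = 0) → Bf w u ρ X = 0 := by
  intro i
  induction i with
  | zero => intro X h _; rw [List.drop_zero] at h; exact Bf_cut h
  | succ i ih =>
    intro X h h1
    cases X with
    | nil => rfl
    | cons a X =>
      have h2 : Bf w u ρ X = 0 := ih X (by simpa using h) fun l hl => by
        have := h1 (l + 1) (by omega)
        simpa using this
      have h3 : u (a :: X) = 0 := by simpa using h1 0 (by omega)
      rw [Bf, h2, h3]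
      split
      · rfl
      · split
        · rfl
        · split <;> rfl

theorem fl_null {w u g : List α → ZMod p} {β : List α → B} {ρ : ZMod p}
    {F' : Filter (List α)} {M : Set (ℕ → B)} {M' : Set (ℕ → B × ZMod p × ZMod p)}
    (hZ' : Zn (rc w ρ) (ext β w) F' M') (hpr : ∀ m ∈ M', pr1 m ∈ M) (hfl : Fl g β M)
    (hug : ∀ X, g X = 0 → u X = 0) : Fl (phi w u ρ) (ext β w) M' := by
  obtain ⟨J, hJ⟩ := hfl
  obtain ⟨J', hJ'⟩ := hZ'.cov []
  refine ⟨J + J' + 1, fun m hm X hX => ?_⟩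
  have hu : ∀ l, l ≤ J' + 1 → u (X.drop l) = 0 := by
    intro l hl
    refine hug _ (hJ (sh^[l] (pr1 m)) ?_ (X.drop l) ?_)
    · have := hpr _ (inv_iter hZ'.mn.inv hm l)
      have e : pr1 (sh^[l] m) = sh^[l] (pr1 m) := by
        funext i
        rw [sh_iter, pr1, sh_iter, pr1]
      rwa [e] at this
    · exact near_drop (near_mono (near_base hX) (by omega))
  cases X with
  | nil => rfl
  | cons a X =>
    obtain ⟨i, hi, h1⟩ := hJ' (sh m) (hZ'.mn.inv m hm) X (by
      have h2 : Near (ext β w) m (J' + 1) (a :: X) := near_mono hX (by omega)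
      have h3 := near_drop (k := 1) h2
      simpa using h3)
    have h4 : Bf w u ρ X = 0 := Bf_win i X h1 fun l hl => by
      have := hu (l + 1) (by omega)
      simpa using this
    have h5 : u (a :: X) = 0 := by simpa using hu 0 (by omega)
    rw [phi, h4, h5]
    split
    · rfl
    · ring

theorem fl_next {w g : List α → ZMod p} {β : List α → B} {ρ : ZMod p}
    {M : Set (ℕ → B)} {M' : Set (ℕ → B × ZMod p × ZMod p)}
    (hpr : ∀ m ∈ M', pr1 m ∈ M) (hfl : Fl g β M) :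
    Fl (fun X => if N w X = ρ then g X else 0) (ext β w) M' := by
  obtain ⟨J, hJ⟩ := hfl
  refine ⟨J, fun m hm X hX => ?_⟩
  show (if N w X = ρ then g X else 0) = 0
  rw [hJ _ (hpr m hm) X (near_base hX)]
  split <;> rfl

theorem Wn.mono {A : Type} {J J' : ℕ} {ψ : (ℕ → B) → A} (h : Wn J ψ) (hJ : J ≤ J') : Wn J' ψ :=
  fun z z' e => h z z' fun i hi => e i (by omega)

/-- good zones are good for the null unit -/
theorem gd_null (hF2 : RowF2) (hG1 : RowG1) (hG3 : RowG3) [Finite B] [Fact p.Prime]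
    {w u : List α → ZMod p} {β : List α → B} {wB : B → ZMod p} {lB : B → Option α}
    (hw : Stg w) (hS : Sys w β wB lB) {ρ : ZMod p} (hw' : Stg (rc w ρ))
    (hS' : Sys (rc w ρ) (ext β w) (wE ρ) (fun b => lB b.1)) (hu : Lc w u)
    (hu0 : ∀ X, w X = 0 → u X = 0) (hB : Lc (rc w ρ) (Bf w u ρ))
    {F F' : Filter (List α)} {M : Set (ℕ → B)} {M' : Set (ℕ → B × ZMod p × ZMod p)}
    (hZ : Zn w β F M) (hZ' : Zn (rc w ρ) (ext β w) F' M') (hpr : ∀ m ∈ M', pr1 m ∈ M)
    (hGd : Gd wB M) {τ : (ℕ → B × ZMod p × ZMod p) → ZMod p}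
    (hτ : Rep (ext β w) M' (fun X => rc w ρ X + 1 * phi w u ρ X) τ) : ¬ Cob M' τ := by
  rintro ⟨ψ, ⟨Jψ, hψ⟩, hc⟩
  obtain ⟨τu, Ju, hu1, hu2⟩ := hG1 α B (ZMod p) p w β wB lB M hw hS hZ.mn.inv hZ.cov u hu
  have : Finite (B × ZMod p × ZMod p) := by
    have : Finite (ZMod p) := by
      have : NeZero p := ⟨(Fact.out : p.Prime).ne_zero⟩
      infer_instance
    infer_instance
  obtain ⟨τB, JB, hB1, hB2⟩ := hG1 α (B × ZMod p × ZMod p) (ZMod p) p (rc w ρ) (ext β w) (wE ρ)
    (fun b => lB b.1) M' hw' hS' hZ'.mn.inv hZ'.cov _ hB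
  obtain ⟨Jτ, hτ1, hτ2⟩ := hτ
  have : NeZero p := ⟨(Fact.out : p.Prime).ne_zero⟩
  refine rot_next hF2 hG3 hS hZ.mn hZ' hpr hGd
    (fun z => wE (B := B) ρ (z 0) + τu (pr1 z) *
      ((if (z 1).2.1 = ρ then 1 else 0) - (if (z 0).2.1 = ρ then 1 else 0))) (fun m _ => ?_)
    ⟨fun z => ψ z + τB z, ⟨max Jψ JB, fun z z' e => ?_⟩, fun m hm => ?_⟩
  · change ∑ c : ZMod p, ((if (m 0).2.1 + c = ρ then (m 0).2.2 else 0) + τu (pr1 m) *
      ((if (m 1).2.1 + c = ρ then 1 else 0) - (if (m 0).2.1 + c = ρ then 1 else 0))) = _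
    rw [Finset.sum_add_distrib, sum_rot, ← Finset.mul_sum, Finset.sum_sub_distrib, sum_rot,
      sum_rot, sub_self, mul_zero, add_zero]
  · show ψ z + τB z = ψ z' + τB z'
    rw [hψ z z' fun i hi => e i (by omega), hB1 z z' fun i hi => e i (by omega)]
  · obtain ⟨X, hX⟩ := exists_near hZ' hm (Ju + JB + Jτ + 2)
    have h0 : ext β w X = m 0 := by simpa using hX.2 0 (by omega)
    have h1 : ext β w X.tail = m 1 := by simpa using hX.2 1 (by omega)
    have h2 : u X = τu (pr1 m) := hu2 _ (hpr m hm) X (near_mono (near_base hX) (by omega))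
    have h3 : Bf w u ρ X = τB m := hB2 m hm X (near_mono hX (by omega))
    have h4 : Bf w u ρ X.tail = τB (sh m) := by
      refine hB2 _ (hZ'.mn.inv m hm) X.tail ?_
      have h5 : Near (ext β w) m (JB + 1) X := near_mono hX (by omega)
      have h6 := near_drop (k := 1) h5
      simpa using h6
    have h5 : rc w ρ X + 1 * phi w u ρ X = τ m := hτ2 m hm X (near_mono hX (by omega))
    have h6 := phi_id hu0 ρ X
    have h7 : rc w ρ X = wE (B := B) ρ (m 0) := by
      rw [← h0]; rfl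
    have h8 : N w X = (m 0).2.1 := by rw [← h0]; rfl
    have h9 : N w X.tail = (m 1).2.1 := by rw [← h1]; rfl
    have h10 := hc m hm
    show wE (B := B) ρ (m 0) + τu (pr1 m) *
      ((if (m 1).2.1 = ρ then 1 else 0) - (if (m 0).2.1 = ρ then 1 else 0)) =
      (ψ m + τB m) - (ψ (sh m) + τB (sh m))
    rw [h2, h8, h9] at h6
    rw [← h6, ← h7, h3, h4]
    have h11 : rc w ρ X + phi w u ρ X = ψ m - ψ (sh m) := by rw [← h10, ← h5, one_mul]
    linear_combination h11

/-! ### the induction -/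

/-- the core statement with `m` zones, at most `n` of them bad, memory `k + 1` -/
def RQ (α : Type) (p : ℕ) (m n k : ℕ) : Prop :=
  ∀ (B : Type) [Finite B] (w : List α → ZMod p) (β : List α → B) (wB : B → ZMod p)
    (lB : B → Option α), Stg w → Sys w β wB lB →
    ∀ Zs : List (Filter (List α) × Set (ℕ → B)), (∀ Z ∈ Zs, Zn w β Z.1 Z.2) → Zs.length = m →
    ∀ g : List α → ZMod p, Lc w g → (∀ X, g X ≠ 0 → w X ≠ 0) → cnt (bad g β wB) Zs ≤ n →
    Mem w (k + 1) g → RR w (Zs.map Prod.fst) (N g)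

theorem mem_mono {A : Type} {w : List α → ZMod p} {n n' : ℕ} {G : List α → A} (h : Mem w n G)
    (hn : n ≤ n') : Mem w n' G :=
  fun c c' S hc hc' hl => h c c' S hc hc' (hn.trans hl)

theorem rt_of_mem {w g : List α → ZMod p} (hw : Rt w w) (hg : ∀ X, g X ≠ 0 → w X ≠ 0)
    (hM : Mem w 1 g) : Rt w g := by
  intro c c' r hc hc' hr
  by_cases h : w (r ++ c) = 0
  · have h' : w (r ++ c') = 0 := by rw [← hw c c' r hc hc' hr]; exact h
    have e1 : g (r ++ c) = 0 := by
      by_contra h1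
      exact hg _ h1 h
    have e2 : g (r ++ c') = 0 := by
      by_contra h1
      exact hg _ h1 h'
    rw [e1, e2]
  · refine hM c c' r hc hc' ?_
    cases r with
    | nil => exact absurd rfl hr
    | cons a r =>
      rw [List.cons_append] at h
      rw [nc, if_neg h]
      omega

theorem RR.congr {w : List α → ZMod p} {Fs : List (Filter (List α))} {G G' : List α → ZMod p}
    (h : RR w Fs G) (e : ∀ X, G X = G' X) : RR w Fs G' := by
  have : G = G' := funext e
  rwa [← this]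

section core

variable [Finite α] [Fact p.Prime]

/-- everything of the rows for one step of a unit -/
theorem unit_step (hB1 : RowB1) (hB3 : RowB3) (hG2 : RowG2) (hG4 : RowG4) (hH2 : RowH2)
    (hH3 : RowH3) {m : ℕ} (hP : ∀ m' < m, ∀ n k, RQ α p m' n k) [Finite B]
    {w h : List α → ZMod p} {β : List α → B} {wB : B → ZMod p} {lB : B → Option α} (hw : Stg w)
    (hS : Sys w β wB lB) (hh : Unt w h) {Zs : List (Filter (List α) × Set (ℕ → B))}
    (hZ : ∀ Z ∈ Zs, Zn w β Z.1 Z.2) (hm : Zs.length = m) (hC : ∀ Z ∈ Zs, Cov h β Z.2) :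
    RR w (Zs.map Prod.fst) (N h) := by
  have hfin : Finite (B × ZMod p × ZMod p) := by
    have : NeZero p := ⟨(Fact.out : p.Prime).ne_zero⟩
    infer_instance
  refine step hG2 hH2 hw hS hh 0 hZ (fun Z hZ' ρs => hC Z hZ' (0 :: ρs)) fun Zs' hZs' => ?_
  refine hH3 α (B × ZMod p × ZMod p) p (rc h 0) (ext β h) (wE 0) (fun b => lB b.1)
    (hB1 α p w h hw hh 0) (hG4 α B p w h β wB lB 0 hw hS hh) Zs' (rel_zn hZs') ?_ _
    (hB3 α p w h hw hh 0)
  intro Zs'' hl hZn g hg hg0
  obtain ⟨_, _, k, hk⟩ := id hg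
  exact hP Zs''.length (by rw [← hm, hZs'.length_eq]; exact hl) _ k _ _ _ _ _
    (hB1 α p w h hw hh 0) (hG4 α B p w h β wB lB 0 hw hS hh) Zs'' hZn rfl g hg hg0 le_rfl
    (mem_mono hk (Nat.le_succ k))

/-- local functions are fine by the hypothesis on fewer marks -/
theorem loc_step (hH3 : RowH3) {m : ℕ} (hP : ∀ m' < m, ∀ n k, RQ α p m' n k) [Finite B]
    {w : List α → ZMod p} {β : List α → B} {wB : B → ZMod p} {lB : B → Option α} (hw : Stg w)
    (hS : Sys w β wB lB) {Zs : List (Filter (List α) × Set (ℕ → B))}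
    (hZ : ∀ Z ∈ Zs, Zn w β Z.1 Z.2) (hm : Zs.length = m) {G : List α → ZMod p} (hG : Lc w G) :
    RR w (Zs.map Prod.fst) G := by
  refine hH3 α B p w β wB lB hw hS Zs hZ ?_ G hG
  intro Zs'' hl hZn g hg hg0
  obtain ⟨_, _, k, hk⟩ := id hg
  exact hP Zs''.length (by rw [← hm]; exact hl) _ k _ _ _ _ _ hw hS Zs'' hZn rfl g hg hg0 le_rfl
    (mem_mono hk (Nat.le_succ k))

theorem forall2_mem {T T' : Type} {R : T → T' → Prop} {Zs : List T} {Zs' : List T'}
    (h : List.Forall₂ R Zs Zs') {Z' : T'} (hZ : Z' ∈ Zs') : ∃ Z ∈ Zs, R Z Z' := by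
  induction h with
  | nil => simp at hZ
  | @cons Z Y Zs Zs' h1 _ ih =>
    rcases List.mem_cons.mp hZ with rfl | h3
    · exact ⟨Z, by simp, h1⟩
    · obtain ⟨Z2, h4, h5⟩ := ih h3
      exact ⟨Z2, List.mem_cons_of_mem _ h4, h5⟩

theorem N_null {w u : List α → ZMod p} (ρ : ZMod p) (X : List α) :
    N (phi w u ρ) X = N (fun X => rc w ρ X + 1 * phi w u ρ X) X + (-1) * N (rc w ρ) X := by
  have h1 := N_add (rc w ρ) (phi w u ρ) X
  have e : (fun X => rc w ρ X + 1 * phi w u ρ X) = fun X => rc w ρ X + phi w u ρ X := by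
    funext Y; rw [one_mul]
  rw [e, h1]; ring

theorem core (hB1 : RowB1) (hB2 : RowB2) (hB3 : RowB3) (hC : RowC) (hD1 : RowD1) (hD2 : RowD2)
    (hD3 : RowD3) (hF2 : RowF2) (hF4 : RowF4) (hF5 : RowF5) (hG1 : RowG1) (hG2 : RowG2)
    (hG3 : RowG3) (hG4 : RowG4) (hH1 : RowH1) (hH2 : RowH2) (hH3 : RowH3) (hI : RowI) {m n : ℕ}
    (hP : ∀ m' < m, ∀ n k, RQ α p m' n k) (hQ : ∀ n' < n, ∀ k, RQ α p m n' k) :
    ∀ k, RQ α p m n k := by
  have hp0 : NeZero p := ⟨(Fact.out : p.Prime).ne_zero⟩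
  intro k
  induction k with
  | succ k ih =>
    intro B _ w β wB lB hw hS Zs hZ hm g hg hg0 hn hM
    have hUw : Unt w w := (hC α p w).2.2.2.2.2.2.2.1 hw
    have hfin : Finite (B × ZMod p × ZMod p) := inferInstance
    -- arrival splitting
    have hs : ∀ X, N g X = ∑ ρ : ZMod p, N (fun X => if N w X = ρ then g X else 0) X := by
      intro X
      rw [← N_sum]
      congr 1
      funext Y
      simp
    refine RR.congr (RR.sum hH1 Finset.univ fun ρ _ => ?_) fun X => (hs X).symm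
    refine step hG2 hH2 hw hS hUw ρ hZ (fun Z hZ' ρs => (hZ Z hZ').cov (ρ :: ρs))
      fun Zs' hZs' => ?_
    refine ih (B × ZMod p × ZMod p) (rc w ρ) (ext β w) (wE ρ) (fun b => lB b.1)
      (hB1 α p w w hw hUw ρ) (hG4 α B p w w β wB lB ρ hw hS hUw) Zs' (rel_zn hZs')
      (by rw [← hZs'.length_eq]; exact hm) _ ?_ ?_ ?_ ?_
    · have h1 := (hC α p (rc w ρ)).2.1 _ _ _ _ (hB3 α p w w hw hUw ρ) (hB2 α _ p w w hw hUw ρ g hg)
      exact (hC α p (rc w ρ)).1 _ _ (fun q : ZMod p × ZMod p => if q.1 = ρ then q.2 else 0) _ h1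
    · intro X hX
      by_cases h1 : N w X = ρ
      · rw [if_pos h1] at hX
        rw [rc, if_pos h1]
        exact hg0 X hX
      · rw [if_neg h1] at hX
        exact absurd rfl hX
    · refine (cnt_le hZs' ?_).trans hn
      rintro Z Z' hZm _ ⟨hR1, hR2⟩ ⟨hb1, hb2⟩
      exact ⟨fun h => hb1 (fl_next hR2 h),
        fun h => hb2 (gd_next hF2 hG3 hS (hZ Z hZm).mn hR1 hR2 h)⟩
    · exact hD1 α p w hw (k + 1) g (by omega) hg0 hM ρ
  | zero =>
    intro B _ w β wB lB hw hS Zs hZ hm g hg hg0 hn hM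
    have hUw : Unt w w := (hC α p w).2.2.2.2.2.2.2.1 hw
    have hLw : Lc w w := (hC α p w).2.2.2.2.2.2.1 hw
    have hfin : Finite (B × ZMod p × ZMod p) := inferInstance
    have hRg : Rt w g := rt_of_mem hw.rt hg0 hM
    set u : List α → ZMod p := fun X => g X * (w X)⁻¹ with hu
    have hLu : Lc w u := (hC α p w).1 _ _ (fun q : ZMod p × ZMod p => q.1 * q.2⁻¹) _
      ((hC α p w).2.1 _ _ _ _ hg hLw)
    have hRu : Rt w u := by
      intro c c' r h1 h2 h3
      show g (r ++ c) * (w (r ++ c))⁻¹ = g (r ++ c') * (w (r ++ c'))⁻¹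
      rw [hRg c c' r h1 h2 h3, hw.rt c c' r h1 h2 h3]
    have hu0 : ∀ X, w X = 0 → u X = 0 := by
      intro X h
      show g X * (w X)⁻¹ = 0
      rw [h, inv_zero, mul_zero]
    have hwu : (fun X => w X * u X) = g := by
      funext X
      show w X * (g X * (w X)⁻¹) = g X
      by_cases h : w X = 0
      · have : g X = 0 := by
          by_contra h1
          exact hg0 X h1 h
        rw [this]; ring
      · field_simp
    have hug : ∀ X, g X = 0 → u X = 0 := by
      intro X h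
      show g X * (w X)⁻¹ = 0
      rw [h, zero_mul]
    have hs : ∀ X, N g X = ∑ ρ : ZMod p, (-ρ) * (N (phi w u ρ) X + Bf w u ρ X) := by
      intro X
      have := hD2 α p w u X
      rw [hwu] at this
      rw [this, ← Finset.sum_neg_distrib]
      exact Finset.sum_congr rfl fun ρ _ => by ring
    refine RR.congr (RR.sum hH1 Finset.univ fun ρ _ => ?_) fun X => (hs X).symm
    refine (hH1 α p w _).2.2 (-ρ) _ ?_
    -- the return stage
    have hw' : Stg (rc w ρ) := hB1 α p w w hw hUw ρ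
    have hS' := hG4 α B p w w β wB lB ρ hw hS hUw
    obtain ⟨hLB, hLφ, hUφ⟩ := hD3 α p w u hw hLu hRu ρ
    refine step hG2 hH2 hw hS hUw ρ hZ (fun Z hZ' ρs => (hZ Z hZ').cov (ρ :: ρs))
      fun Zs' hZs' => ?_
    have hZ' := rel_zn hZs'
    have hm' : Zs'.length = m := by rw [← hZs'.length_eq]; exact hm
    refine (hH1 α p _ _).2.1 _ _ ?_ (loc_step hH3 hP hw' hS' hZ' hm' hLB)
    set β' := ext β w with hβ'
    by_cases hall : ∀ Z' ∈ Zs', Cov (fun X => rc w ρ X + 1 * phi w u ρ X) β' Z'.2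
    · -- all zones are fine
      refine RR.congr ((hH1 α p _ _).2.1 _ _
        (unit_step hB1 hB3 hG2 hG4 hH2 hH3 hP hw' hS' (hUφ 1) hZ' hm' hall)
        ((hH1 α p _ _).2.2 (-1) _ (unit_step hB1 hB3 hG2 hG4 hH2 hH3 hP hw' hS'
          ((hC α p _).2.2.2.2.2.2.2.1 hw') hZ' hm' fun Z' h => (hZ' Z' h).cov)))
        fun X => (N_null ρ X).symm
    · -- a zone which is not fine
      push Not at hall
      obtain ⟨Z0, hZ0, hcov⟩ := hall
      have hZn0 := hZ' Z0 hZ0
      have hnfl : ¬ Fl (phi w u ρ) β' Z0.2 := by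
        rintro ⟨J, hJ⟩
        refine hcov (hF5 α _ p β' (rc w ρ) _ Z0.2 hZn0.mn.inv ⟨J, fun m' hm' X hX => ?_⟩ hZn0.cov)
        show rc w ρ X + 1 * phi w u ρ X = rc w ρ X
        rw [hJ m' hm' X hX, mul_zero, add_zero]
      obtain ⟨τ, hτ⟩ := hG1 α _ (ZMod p) p (rc w ρ) β' (wE ρ) (fun b => lB b.1) Z0.2 hw' hS'
        hZn0.mn.inv hZn0.cov _ ((hC α p _).2.2.2.2.2.2.2.2.1 _ (hUφ 1))
      have hcob : Cob Z0.2 τ := by
        by_contra h
        exact hcov (hF4 α _ p β' _ Z0.2 τ hZn0.mn hτ h)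
      -- the old zone was bad
      have hold : ∀ Z, Z ∈ Zs → Rel (rc w ρ) w β Z Z0 → bad g β wB Z := by
        rintro Z hZm ⟨hR1, hR2⟩
        refine ⟨fun h => hnfl (fl_null hR1 hR2 h hug), fun h => ?_⟩
        exact gd_null hF2 hG1 hG3 hw hS hw' hS' hLu hu0 hLB (hZ Z hZm) hR1 hR2 h hτ hcob
      have hbad : ∀ Z Z', Z ∈ Zs → Z' ∈ Zs' → Rel (rc w ρ) w β Z Z' →
          bad (phi w u ρ) β' (wE ρ) Z' → bad g β wB Z := by
        rintro Z Z' hZm _ ⟨hR1, hR2⟩ ⟨hb1, hb2⟩
        exact ⟨fun h => hb1 (fl_null hR1 hR2 h hug),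
          fun h => hb2 (gd_next hF2 hG3 hS (hZ Z hZm).mn hR1 hR2 h)⟩
      by_cases hgd : Gd (wE (B := B) ρ) Z0.2
      · -- the zone has become good
        have hlt := cnt_lt hZs' hbad hZ0 hold fun h => h.2 hgd
        obtain ⟨_, _, k, hk⟩ := id hLφ
        exact hQ _ (lt_of_lt_of_le hlt hn) k _ (rc w ρ) β' (wE ρ) (fun b => lB b.1) hw' hS' Zs' hZ'
          hm' _ hLφ phi_sup le_rfl (mem_mono hk (Nat.le_succ k))
      · -- flatten
        have hcw : Cob Z0.2 fun z => wE (B := B) ρ (z 0) := by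
          by_contra h
          exact hgd h
        obtain ⟨τφ, hτφ⟩ := hG1 α _ (ZMod p) p (rc w ρ) β' (wE ρ) (fun b => lB b.1) Z0.2 hw' hS'
          hZn0.mn.inv hZn0.cov _ hLφ
        have hcφ : Cob Z0.2 τφ := by
          obtain ⟨ψ1, ⟨J1, hψ1⟩, h1⟩ := hcob
          obtain ⟨ψ2, ⟨J2, hψ2⟩, h2⟩ := hcw
          refine ⟨fun z => ψ1 z - ψ2 z, ⟨max J1 J2, fun z z' e => ?_⟩, fun m' hm' => ?_⟩
          · show ψ1 z - ψ2 z = ψ1 z' - ψ2 z'
            rw [hψ1 z z' fun i hi => e i (by omega), hψ2 z z' fun i hi => e i (by omega)]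
          · obtain ⟨J3, _, h3⟩ := hτ
            obtain ⟨J4, _, h4⟩ := hτφ
            obtain ⟨X, hX⟩ := exists_near hZn0 hm' (J3 + J4 + 1)
            have e1 : rc w ρ X + 1 * phi w u ρ X = τ m' := h3 m' hm' X (near_mono hX (by omega))
            have e2 : phi w u ρ X = τφ m' := h4 m' hm' X (near_mono hX (by omega))
            have e3 : rc w ρ X = wE (B := B) ρ (m' 0) := by
              have h5 : ext β w X = m' 0 := by simpa using hX.2 0 (by omega)
              rw [← h5]; rfl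
            have e4 := h1 m' hm'
            have e5 : wE (B := B) ρ (m' 0) = ψ2 m' - ψ2 (sh m') := h2 m' hm'
            show τφ m' = (ψ1 m' - ψ2 m') - (ψ1 (sh m') - ψ2 (sh m'))
            linear_combination e4 - e5 + e1 - e2 - e3
        obtain ⟨g', G', hg', hg0', hG', hN, hfl, hfls⟩ := hI α _ p (rc w ρ) β' (wE ρ)
          (fun b => lB b.1) hw' hS' Zs' hZ' (phi w u ρ) hLφ phi_sup Z0 hZ0 τφ hτφ hcφ
        refine RR.congr ((hH1 α p _ _).2.1 _ _ ?_ (loc_step hH3 hP hw' hS' hZ' hm' hG'))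
          fun X => (hN X).symm
        have hlt := cnt_lt (b' := bad g' β' (wE ρ)) hZs' ?_ hZ0 hold fun h => h.1 hfl
        · obtain ⟨_, _, k, hk⟩ := id hg'
          exact hQ _ (lt_of_lt_of_le hlt hn) k _ (rc w ρ) β' (wE ρ) (fun b => lB b.1) hw' hS' Zs'
            hZ' hm' _ hg' hg0' le_rfl (mem_mono hk (Nat.le_succ k))
        · intro Z Z' hZm hZm' hR hb
          refine hbad Z Z' hZm hZm' hR ⟨fun h => hb.1 (hfls Z' hZm' h), hb.2⟩

theorem rowJ (hB1 : RowB1) (hB2 : RowB2) (hB3 : RowB3) (hC : RowC) (hD1 : RowD1) (hD2 : RowD2)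
    (hD3 : RowD3) (hF2 : RowF2) (hF4 : RowF4) (hF5 : RowF5) (hG1 : RowG1) (hG2 : RowG2)
    (hG3 : RowG3) (hG4 : RowG4) (hH1 : RowH1) (hH2 : RowH2) (hH3 : RowH3) (hI : RowI) :
    ∀ m n k, RQ α p m n k := by
  intro m
  induction m using Nat.strong_induction_on with
  | _ m ihm =>
    intro n
    induction n using Nat.strong_induction_on with
    | _ n ihn =>
      exact core hB1 hB2 hB3 hC hD1 hD2 hD3 hF2 hF4 hF5 hG1 hG2 hG3 hG4 hH1 hH2 hH3 hI ihm ihn

end core

/-- **Row (J)**: the core induction. -/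
theorem rowJ_of (hB1 : RowB1) (hB2 : RowB2) (hB3 : RowB3) (hC : RowC) (hD1 : RowD1)
    (hD2 : RowD2) (hD3 : RowD3) (hF2 : RowF2) (hF4 : RowF4) (hF5 : RowF5) (hG1 : RowG1)
    (hG2 : RowG2) (hG3 : RowG3) (hG4 : RowG4) (hH1 : RowH1) (hH2 : RowH2) (hH3 : RowH3)
    (hI : RowI) : RowJ := by
  intro α B _ _ p _ w β wB lB hw hS Zs hZ g hg hg0
  obtain ⟨_, _, k, hk⟩ := id hg
  exact rowJ hB1 hB2 hB3 hC hD1 hD2 hD3 hF2 hF4 hF5 hG1 hG2 hG3 hG4 hH1 hH2 hH3 hI _ _ k B w β wB
    lB hw hS Zs hZ rfl g hg hg0 le_rfl (mem_mono hk (Nat.le_succ k))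

end Vale.Agent.P329.H244
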